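import Vale.Agent.P181.R2.H302.FGen
import Vale.Agent.P181.R2.H959.WDefs

/-!
P181 rows W7, Y1 (families of symmetric highest weight functions of `2 i` points): the machine.
-/

set_option autoImplicit false

namespace Vale.Agent.P181.FR

open Vale.Agent.P181 Vale.Agent.P181.H280 Vale.Agent.P181.H54

namespace H160F

open Polynomial

/-! ### polynomials with a positive coefficient at the degree bound -/

/-- degree at most `d`, positive coefficient at `d` -/
def LP (f : ℂ[X]) (d : ℕ) : Prop := f.natDegree ≤ d ∧ ∃ a : ℝ, 0 < a ∧ f.coeff d = a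

/-- degree at most `d`, nonzero real coefficient at `d` -/
def LR (f : ℂ[X]) (d : ℕ) : Prop := f.natDegree ≤ d ∧ ∃ a : ℝ, a ≠ 0 ∧ f.coeff d = a

lemma LP.mul {f g : ℂ[X]} {d e : ℕ} (hf : LP f d) (hg : LP g e) : LP (f * g) (d + e) := by
  obtain ⟨h1, a, ha, ha'⟩ := hf
  obtain ⟨h2, b, hb, hb'⟩ := hg
  refine ⟨natDegree_mul_le_of_le h1 h2, a * b, mul_pos ha hb, ?_⟩
  rw [coeff_mul_add_eq_of_natDegree_le h1 h2, ha', hb']
  push_cast
  rfl

lemma LR.mul {f g : ℂ[X]} {d e : ℕ} (hf : LR f d) (hg : LR g e) : LR (f * g) (d + e) := by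
  obtain ⟨h1, a, ha, ha'⟩ := hf
  obtain ⟨h2, b, hb, hb'⟩ := hg
  refine ⟨natDegree_mul_le_of_le h1 h2, a * b, mul_ne_zero ha hb, ?_⟩
  rw [coeff_mul_add_eq_of_natDegree_le h1 h2, ha', hb']
  push_cast
  rfl

lemma LR.sq {f : ℂ[X]} {d : ℕ} (hf : LR f d) : LP (f ^ 2) (2 * d) := by
  obtain ⟨h1, a, ha, ha'⟩ := hf
  rw [pow_two, two_mul]
  refine ⟨natDegree_mul_le_of_le h1 h1, a * a, mul_self_pos.2 ha, ?_⟩
  rw [coeff_mul_add_eq_of_natDegree_le h1 h1, ha']
  push_cast
  rfl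

lemma LP.one : LP 1 0 := ⟨by simp, 1, one_pos, by simp⟩

lemma LP.pow {f : ℂ[X]} {d : ℕ} (hf : LP f d) (k : ℕ) : LP (f ^ k) (k * d) := by
  induction k with
  | zero => simpa using LP.one
  | succ k ih =>
    rw [pow_succ, Nat.succ_mul]
    exact ih.mul hf

lemma LP.prod {ι : Type*} (s : Finset ι) (f : ι → ℂ[X]) (d : ι → ℕ)
    (h : ∀ i ∈ s, LP (f i) (d i)) : LP (∏ i ∈ s, f i) (∑ i ∈ s, d i) := by
  classical
  induction s using Finset.induction_on with
  | empty => simpa using LP.one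
  | insert a s ha ih =>
    rw [Finset.prod_insert ha, Finset.sum_insert ha]
    exact (h a (Finset.mem_insert_self a s)).mul
      (ih fun i hi => h i (Finset.mem_insert_of_mem hi))

lemma LP.sum {ι : Type*} (s : Finset ι) (f : ι → ℂ[X]) (d : ι → ℕ) (D : ℕ)
    (h : ∀ i ∈ s, LP (f i) (d i)) (hle : ∀ i ∈ s, d i ≤ D) (hex : ∃ i ∈ s, d i = D) :
    LP (∑ i ∈ s, f i) D := by
  refine ⟨natDegree_sum_le_of_forall_le s f fun i hi => (h i hi).1.trans (hle i hi), ?_⟩
  have h1 : ∀ i : ι, ∃ a : ℝ, i ∈ s → (0 ≤ a ∧ (f i).coeff D = a ∧ (d i = D → 0 < a)) := by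
    intro i
    by_cases hi : i ∈ s
    · obtain ⟨h2, a, ha, ha'⟩ := h i hi
      by_cases h3 : d i = D
      · exact ⟨a, fun _ => ⟨ha.le, by rw [← h3, ha'], fun _ => ha⟩⟩
      · refine ⟨0, fun _ => ⟨le_refl _, ?_, fun h4 => absurd h4 h3⟩⟩
        rw [coeff_eq_zero_of_natDegree_lt (lt_of_le_of_lt h2 (lt_of_le_of_ne (hle i hi) h3))]
        simp
    · exact ⟨0, fun h4 => absurd h4 hi⟩
  choose a ha using h1
  refine ⟨∑ i ∈ s, a i, ?_, ?_⟩
  · obtain ⟨i, hi, hd⟩ := hex
    exact Finset.sum_pos' (fun j hj => (ha j hj).1) ⟨i, hi, (ha i hi).2.2 hd⟩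
  · rw [finsetSum_coeff]
    push_cast
    exact Finset.sum_congr rfl fun i hi => (ha i hi).2.1

lemma li_of_LP {ι α : Type*} [Fintype ι] (F : ι → α → ℂ) (q : ℂ → α) (f : ι → ℂ[X])
    (d : ι → ℕ) (hd : Function.Injective d) (hf : ∀ k t, F k (q t) = (f k).eval t)
    (hL : ∀ k, LP (f k) (d k)) : LinearIndependent ℂ F := by
  classical
  rw [Fintype.linearIndependent_iff]
  intro w hw
  by_contra hne
  push Not at hne
  obtain ⟨k0, hk0⟩ := hne
  obtain ⟨k, hk, hmax⟩ := Finset.exists_max_image (Finset.univ.filter (fun k => w k ≠ 0)) d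
    ⟨k0, by simpa using hk0⟩
  have hp : ∑ k, C (w k) * f k = 0 := by
    apply Polynomial.funext
    intro t
    have h1 := congrFun hw (q t)
    rw [Finset.sum_apply] at h1
    rw [eval_finsetSum, eval_zero]
    refine Eq.trans ?_ h1
    refine Finset.sum_congr rfl fun j _ => ?_
    rw [eval_mul, eval_C, ← hf, Pi.smul_apply, smul_eq_mul]
  have h2 := congrArg (fun P => P.coeff (d k)) hp
  simp only [finsetSum_coeff, coeff_zero, coeff_C_mul] at h2
  rw [Finset.sum_eq_single k] at h2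
  · obtain ⟨_, a, ha, ha'⟩ := hL k
    rw [ha'] at h2
    have h3 : w k ≠ 0 := by simpa using hk
    rcases mul_eq_zero.1 h2 with h4 | h4
    · exact h3 h4
    · exact ha.ne' (by exact_mod_cast h4)
  · intro j _ hj
    by_cases h5 : w j = 0
    · rw [h5, zero_mul]
    · have h6 := hmax j (by simpa using h5)
      have h7 : d j ≠ d k := fun h => hj (hd h)
      rw [coeff_eq_zero_of_natDegree_lt (lt_of_le_of_lt (hL j).1 (lt_of_le_of_ne h6 h7)),
        mul_zero]
  · intro h; exact absurd (Finset.mem_univ _) h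

/-! ### the functions -/

variable {B m i : ℕ}

/-- product of the brackets of the two halves -/
noncomputable def DD (him : i ≤ m) (τ : Fin i ⊕ Fin i ≃ Fin B) (p : Fin B → Fin m → ℂ) : ℂ :=
  Gen.dD him (fun u => p (τ (Sum.inl u))) * Gen.dD him (fun u => p (τ (Sum.inr u)))

theorem DD_MP (him : i ≤ m) (τ : Fin i ⊕ Fin i ≃ Fin B) : DD him τ ∈ MP B m 1 := by
  have h : DD him τ = ∑ σ : Equiv.Perm (Fin i), ∑ ρ : Equiv.Perm (Fin i),
      (((Equiv.Perm.sign σ : ℤ) : ℂ) * ((Equiv.Perm.sign ρ : ℤ) : ℂ)) •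
        (fun p : Fin B → Fin m → ℂ => ∏ j, p j (Sum.elim (fun u => Fin.castLE him (σ u))
          (fun u => Fin.castLE him (ρ u)) (τ.symm j))) := by
    funext p
    unfold DD Gen.dD
    rw [← Matrix.det_transpose, Matrix.det_apply', ← Matrix.det_transpose, Matrix.det_apply',
      Finset.sum_mul_sum, Finset.sum_apply]
    refine Finset.sum_congr rfl fun σ _ => ?_
    rw [Finset.sum_apply]
    refine Finset.sum_congr rfl fun ρ _ => ?_
    rw [Pi.smul_apply, smul_eq_mul, ← Equiv.prod_comp τ, Fintype.prod_sum_type]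
    simp only [Matrix.transpose_apply, Matrix.of_apply, Equiv.symm_apply_apply, Sum.elim_inl,
      Sum.elim_inr]
    ring
  rw [h]
  exact Submodule.sum_mem _ fun σ _ => Submodule.sum_mem _ fun ρ _ =>
    Submodule.smul_mem _ _ (MP_coord _)

theorem DD_wt (him : i ≤ m) (τ : Fin i ⊕ Fin i ≃ Fin B) {g : Matrix (Fin m) (Fin m) ℂ}
    (hg : IsBorel g) (p : Fin B → Fin m → ℂ) :
    DD him τ (fun j => Matrix.vecMul (p j) g) = (∏ k, g k k ^ om m i k) ^ 2 * DD him τ p := by
  unfold DD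
  rw [Gen.dD_wt him hg, Gen.dD_wt him hg]
  ring

/-- sum -/
noncomputable def F1 (B : ℕ) (him : i ≤ m) : (Fin B → Fin m → ℂ) → ℂ := fun p =>
  ∑ τ : Fin i ⊕ Fin i ≃ Fin B, DD him τ p ^ 2

/-- sum of the products of all but one -/
noncomputable def F2 (B : ℕ) (him : i ≤ m) : (Fin B → Fin m → ℂ) → ℂ := fun p =>
  ∑ τ : Fin i ⊕ Fin i ≃ Fin B, ∏ τ' ∈ Finset.univ.erase τ, DD him τ' p ^ 2

/-- product -/
noncomputable def F3 (B : ℕ) (him : i ≤ m) : (Fin B → Fin m → ℂ) → ℂ := fun p =>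
  ∏ τ : Fin i ⊕ Fin i ≃ Fin B, DD him τ p ^ 2

theorem MP_prod {ι : Type*} (s : Finset ι) (f : ι → (Fin B → Fin m → ℂ) → ℂ) {a : ℕ}
    (h : ∀ k ∈ s, f k ∈ MP B m a) : ∏ k ∈ s, f k ∈ MP B m (s.card * a) := by
  classical
  induction s using Finset.induction_on with
  | empty => rw [Finset.prod_empty, Finset.card_empty, Nat.zero_mul]; exact Gen.MP_one
  | insert x s hx ih =>
    rw [Finset.prod_insert hx, Finset.card_insert_of_notMem hx]
    exact Gen.MP_cast (by ring) (MP_mul (h x (Finset.mem_insert_self x s))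
      (ih fun k hk => h k (Finset.mem_insert_of_mem hk)))

/-- the number of splittings -/
noncomputable def NB (B i : ℕ) : ℕ := Fintype.card (Fin i ⊕ Fin i ≃ Fin B)

theorem sq_MP (him : i ≤ m) (τ : Fin i ⊕ Fin i ≃ Fin B) : DD him τ ^ 2 ∈ MP B m 2 :=
  Gen.MP_cast (by norm_num) (Gen.MP_pow (DD_MP him τ) 2)

theorem F1_MP (him : i ≤ m) : F1 B him ∈ MP B m 2 := by
  have h : F1 B him = ∑ τ : Fin i ⊕ Fin i ≃ Fin B, DD him τ ^ 2 := by
    funext p
    rw [Finset.sum_apply]
    rfl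
  rw [h]
  exact Submodule.sum_mem _ fun τ _ => sq_MP him τ

theorem F3_MP (him : i ≤ m) : F3 B him ∈ MP B m (NB B i * 2) := by
  have h : F3 B him = ∏ τ : Fin i ⊕ Fin i ≃ Fin B, DD him τ ^ 2 := by
    funext p
    rw [Finset.prod_apply]
    rfl
  rw [h]
  exact MP_prod _ _ fun τ _ => sq_MP him τ

theorem F2_MP (him : i ≤ m) : F2 B him ∈ MP B m ((NB B i - 1) * 2) := by
  have h : F2 B him = ∑ τ : Fin i ⊕ Fin i ≃ Fin B, ∏ τ' ∈ Finset.univ.erase τ,
      DD him τ' ^ 2 := by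
    funext p
    rw [Finset.sum_apply]
    refine Finset.sum_congr rfl fun τ _ => ?_
    rw [Finset.prod_apply]
    rfl
  rw [h]
  refine Submodule.sum_mem _ fun τ _ => ?_
  have h1 := MP_prod (Finset.univ.erase τ) (fun τ' => DD him τ' ^ 2)
    (fun τ' _ => sq_MP him τ')
  rw [Finset.card_erase_of_mem (Finset.mem_univ τ)] at h1
  exact h1

/-- the family -/
noncomputable def GG (B : ℕ) (him : i ≤ m) (al be ga : ℕ) : (Fin B → Fin m → ℂ) → ℂ :=
  F1 B him ^ al * F2 B him ^ be * F3 B him ^ ga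

theorem GG_MP (him : i ≤ m) (al be ga : ℕ) :
    GG B him al be ga ∈ MP B m (2 * (al + (NB B i - 1) * be + NB B i * ga)) :=
  Gen.MP_cast (by ring) (MP_mul (MP_mul (Gen.MP_pow (F1_MP him) al) (Gen.MP_pow (F2_MP him) be))
    (Gen.MP_pow (F3_MP him) ga))

theorem GG_wt (him : i ≤ m) (al be ga : ℕ) :
    HWF B m ((4 * (al + (NB B i - 1) * be + NB B i * ga)) • om m i) (GG B him al be ga) := by
  intro g hg p
  rw [Gen.wt_smul]
  have e1 : F1 B him (fun j => Matrix.vecMul (p j) g) =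
      (∏ k, g k k ^ om m i k) ^ 4 * F1 B him p := by
    unfold F1
    rw [Finset.mul_sum]
    refine Finset.sum_congr rfl fun τ _ => ?_
    rw [DD_wt him τ hg]
    ring
  have e3 : F3 B him (fun j => Matrix.vecMul (p j) g) =
      (∏ k, g k k ^ om m i k) ^ (4 * NB B i) * F3 B him p := by
    unfold F3 NB
    rw [pow_mul, ← Finset.card_univ, ← Finset.prod_const, ← Finset.prod_mul_distrib]
    refine Finset.prod_congr rfl fun τ _ => ?_
    rw [DD_wt him τ hg]
    ring
  have e2 : F2 B him (fun j => Matrix.vecMul (p j) g) =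
      (∏ k, g k k ^ om m i k) ^ (4 * (NB B i - 1)) * F2 B him p := by
    unfold F2 NB
    rw [Finset.mul_sum]
    refine Finset.sum_congr rfl fun τ _ => ?_
    rw [pow_mul, ← Finset.card_univ, ← Finset.card_erase_of_mem (Finset.mem_univ τ),
      ← Finset.prod_const, ← Finset.prod_mul_distrib]
    refine Finset.prod_congr rfl fun τ' _ => ?_
    rw [DD_wt him τ' hg]
    ring
  unfold GG
  simp only [Pi.mul_apply, Pi.pow_apply, e1, e2, e3]
  ring

/-- composition with a permutation of the points -/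
def tr (σ : Equiv.Perm (Fin B)) : (Fin i ⊕ Fin i ≃ Fin B) ≃ (Fin i ⊕ Fin i ≃ Fin B) where
  toFun τ := τ.trans σ
  invFun τ := τ.trans σ.symm
  left_inv τ := by ext x; simp
  right_inv τ := by ext x; simp

theorem DD_tr (him : i ≤ m) (σ : Equiv.Perm (Fin B)) (τ : Fin i ⊕ Fin i ≃ Fin B)
    (p : Fin B → Fin m → ℂ) : DD him τ (fun j => p (σ j)) = DD him (tr σ τ) p := rfl

theorem GG_sy (him : i ≤ m) (al be ga : ℕ) (σ : Equiv.Perm (Fin B)) (p : Fin B → Fin m → ℂ) :
    GG B him al be ga (fun j => p (σ j)) = GG B him al be ga p := by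
  have e1 : F1 B him (fun j => p (σ j)) = F1 B him p := by
    unfold F1
    simp only [DD_tr]
    exact Equiv.sum_comp (tr σ) (fun τ => DD him τ p ^ 2)
  have e3 : F3 B him (fun j => p (σ j)) = F3 B him p := by
    unfold F3
    simp only [DD_tr]
    exact Equiv.prod_comp (tr σ) (fun τ => DD him τ p ^ 2)
  have e2 : F2 B him (fun j => p (σ j)) = F2 B him p := by
    unfold F2
    simp only [DD_tr]
    rw [← Equiv.sum_comp (tr σ) (fun τ => ∏ τ' ∈ Finset.univ.erase τ, DD him τ' p ^ 2)]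
    refine Finset.sum_congr rfl fun τ _ => ?_
    refine Finset.prod_bij (fun τ' _ => tr σ τ') ?_ ?_ ?_ ?_
    · intro a ha
      exact Finset.mem_erase.2 ⟨fun h => (Finset.mem_erase.1 ha).1 ((tr σ).injective h),
        Finset.mem_univ _⟩
    · intro a _ b _ h
      exact (tr σ).injective h
    · intro b hb
      refine ⟨(tr σ).symm b, Finset.mem_erase.2 ⟨?_, Finset.mem_univ _⟩, by simp⟩
      intro h
      apply (Finset.mem_erase.1 hb).1
      rw [← h, Equiv.apply_symm_apply]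
    · intro a _
      rfl
  unfold GG
  simp only [Pi.mul_apply, Pi.pow_apply, e1, e2, e3]

theorem ext_tau (hB : B = 2 * i) (s : Finset (Fin i ⊕ Fin i)) (f : Fin i ⊕ Fin i → Fin B)
    (hf : Set.InjOn f s) : ∃ τ : Fin i ⊕ Fin i ≃ Fin B, ∀ a ∈ s, τ a = f a := by
  classical
  obtain ⟨g, hg⟩ := Finset.exists_equiv_extend_of_card_eq (t := (Finset.univ : Finset (Fin B)))
    (s := s) (f := f) (by simp [hB]; ring) (Finset.subset_univ _) hf
  exact ⟨g.trans (Equiv.subtypeUnivEquiv (fun x => Finset.mem_univ x)), fun a ha => hg a ha⟩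

theorem GG_zero (hi : 3 ≤ i) (hB : B = 2 * i) (him : i ≤ m) (al be ga : ℕ) (hga : ga ≠ 0)
    (p : Fin B → Fin m → ℂ) {u v : Fin B} (huv : u ≠ v) (h : p u = p v) :
    GG B him al be ga p = 0 := by
  classical
  have i0 : 0 < i := by omega
  have i1 : 1 < i := by omega
  obtain ⟨τ, hτ⟩ := ext_tau hB {Sum.inl ⟨0, i0⟩, Sum.inl ⟨1, i1⟩}
    (fun x => if x = Sum.inl ⟨0, i0⟩ then u else v) (by
      intro x hx y hy hxy
      simp only [Finset.coe_insert, Finset.coe_singleton, Set.mem_insert_iff,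
        Set.mem_singleton_iff] at hx hy
      have h01 : (Sum.inl ⟨1, i1⟩ : Fin i ⊕ Fin i) ≠ Sum.inl ⟨0, i0⟩ := by
        simp
      rcases hx with rfl | rfl <;> rcases hy with rfl | rfl
      · rfl
      · simp only [if_true, if_neg h01] at hxy; exact absurd hxy huv
      · simp only [if_true, if_neg h01] at hxy; exact absurd hxy.symm huv
      · rfl)
  have h0 : τ (Sum.inl ⟨0, i0⟩) = u := by
    rw [hτ _ (by simp)]; simp
  have h1 : τ (Sum.inl ⟨1, i1⟩) = v := by
    rw [hτ _ (by simp)]; simp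
  have hD : DD him τ p = 0 := by
    unfold DD Gen.dD
    rw [Matrix.det_zero_of_row_eq (i := (⟨0, i0⟩ : Fin i)) (j := ⟨1, i1⟩) (by simp) (by
      funext k
      simp only [Matrix.of_apply, h0, h1, h]), zero_mul]
  unfold GG
  simp only [Pi.mul_apply, Pi.pow_apply]
  have h3 : F3 B him p = 0 := by
    unfold F3
    exact Finset.prod_eq_zero (Finset.mem_univ τ) (by rw [hD]; norm_num)
  rw [h3, zero_pow hga, mul_zero]

/-! ### the curve -/

/-- real Vandermonde determinant -/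
noncomputable def vd (x : Fin i → ℝ) : ℝ := (Matrix.vandermonde x).det

lemma vd_cast (x : Fin i → ℝ) :
    ((vd x : ℝ) : ℂ) = (Matrix.vandermonde (fun u => (x u : ℂ))).det := by
  unfold vd
  rw [Matrix.det_vandermonde, Matrix.det_vandermonde]
  push_cast
  rfl

/-- the last point on the curve -/
noncomputable def qq (n m La : ℕ) (t : ℂ) : Fin m → ℂ := fun v =>
  ((n : ℕ) : ℂ) ^ (v : ℕ) + t ^ La * (0 : ℂ) ^ (v : ℕ) + t ^ (La - 1) * (1 : ℂ) ^ (v : ℕ)

/-- the points -/
noncomputable def pts (n m La : ℕ) (t : ℂ) : Fin (n + 1) → Fin m → ℂ :=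
  Fin.snoc (α := fun _ => Fin m → ℂ) (fun j (v : Fin m) => ((j : ℕ) : ℂ) ^ (v : ℕ))
    (qq n m La t)

lemma pts_last (n m La : ℕ) (t : ℂ) : pts n m La t (Fin.last n) = qq n m La t :=
  Fin.snoc_last (α := fun _ => Fin m → ℂ) _ _

lemma pts_ne (n m La : ℕ) (t : ℂ) {j : Fin (n + 1)} (h : (j : ℕ) ≠ n) :
    pts n m La t j = fun v : Fin m => ((j : ℕ) : ℂ) ^ (v : ℕ) := by
  have h1 : j ≠ Fin.last n := fun hh => h (by rw [hh, Fin.val_last])
  obtain ⟨k, rfl⟩ := Fin.exists_castSucc_eq.2 h1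
  unfold pts
  rw [Fin.snoc_castSucc (α := fun _ => Fin m → ℂ)]
  rfl

/-- the degree of the bracket of a half -/
def dl {n : ℕ} (La : ℕ) (e : Fin i → Fin (n + 1)) : ℕ :=
  if (∃ u, (e u : ℕ) = n) then (if (∃ u, (e u : ℕ) = 0) then
    (if (∃ u, (e u : ℕ) = 1) then 0 else La - 1) else La) else 0

/-- 0, 1, last in this half -/
def xl {n : ℕ} (e : Fin i → Fin (n + 1)) : ℕ :=
  if (∃ u, (e u : ℕ) = n) ∧ (∃ u, (e u : ℕ) = 0) ∧ (∃ u, (e u : ℕ) = 1) then 1 else 0

/-- 0, last in this half, not 1 -/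
def yl {n : ℕ} (e : Fin i → Fin (n + 1)) : ℕ :=
  if (∃ u, (e u : ℕ) = n) ∧ (∃ u, (e u : ℕ) = 0) ∧ ¬ (∃ u, (e u : ℕ) = 1) then 1 else 0

/-- last in this half -/
def zl {n : ℕ} (e : Fin i → Fin (n + 1)) : ℕ := if (∃ u, (e u : ℕ) = n) then 1 else 0

lemma dl_add {n La : ℕ} (hLa : 1 ≤ La) (e : Fin i → Fin (n + 1)) :
    dl La e + La * xl e + yl e = La * zl e := by
  unfold dl xl yl zl
  by_cases h1 : (∃ u, (e u : ℕ) = n) <;> by_cases h2 : (∃ u, (e u : ℕ) = 0) <;>
    by_cases h3 : (∃ u, (e u : ℕ) = 1) <;>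
    simp only [h1, h2, h3, if_true, if_false, and_true, and_false,
      not_true_eq_false, not_false_eq_true, mul_one, mul_zero] <;> omega

lemma inj_update {x : Fin i → ℝ} (hx : Function.Injective x) (u0 : Fin i) (a : ℝ)
    (h : ∀ u, u ≠ u0 → x u ≠ a) : Function.Injective (Function.update x u0 a) := by
  intro u v huv
  by_cases h1 : u = u0 <;> by_cases h2 : v = u0
  · rw [h1, h2]
  · rw [h1, Function.update_self, Function.update_of_ne h2] at huv
    exact absurd huv.symm (h v h2)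
  · rw [h2, Function.update_self, Function.update_of_ne h1] at huv
    exact absurd huv (h u h1)
  · rw [Function.update_of_ne h1, Function.update_of_ne h2] at huv
    exact hx huv

lemma vd_update_zero {x : Fin i → ℝ} (u0 u1 : Fin i) (a : ℝ) (h : u1 ≠ u0) (h1 : x u1 = a) :
    vd (Function.update x u0 a) = 0 := by
  unfold vd
  rw [Matrix.det_vandermonde_eq_zero_iff]
  exact ⟨u1, u0, by rw [Function.update_of_ne h, Function.update_self, h1], h⟩

lemma vd_ne {x : Fin i → ℝ} (hx : Function.Injective x) : vd x ≠ 0 :=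
  Matrix.det_vandermonde_ne_zero_iff.2 hx

lemma updateRow_vd (x : Fin i → ℝ) (u0 : Fin i) (a : ℝ) :
    Matrix.updateRow (Matrix.vandermonde (fun u => (x u : ℂ))) u0
      (fun k : Fin i => (a : ℂ) ^ (k : ℕ)) =
    Matrix.vandermonde (fun u => ((Function.update x u0 a u : ℝ) : ℂ)) := by
  ext u k
  by_cases h : u = u0
  · subst h
    rw [Matrix.updateRow_self, Matrix.vandermonde_apply, Function.update_self]
  · rw [Matrix.updateRow_ne h, Matrix.vandermonde_apply, Matrix.vandermonde_apply,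
      Function.update_of_ne h]

theorem half (him : i ≤ m) {n La : ℕ} (hLa : 2 ≤ La) (hn : 2 ≤ n) (e : Fin i → Fin (n + 1))
    (he : Function.Injective e) :
    ∃ f : ℂ[X], (∀ t, Gen.dD him (fun u => pts n m La t (e u)) = f.eval t) ∧
      LR f (dl La e) := by
  set x : Fin i → ℝ := fun u => ((e u : ℕ) : ℝ) with hx
  have hxi : Function.Injective x := by
    intro u v h
    exact he (Fin.ext (Nat.cast_injective h))
  by_cases hl : ∃ u, (e u : ℕ) = n
  · obtain ⟨u0, hu0⟩ := hl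
    have hne : ∀ u, u ≠ u0 → (e u : ℕ) ≠ n := fun u hu h =>
      hu (he (Fin.ext (h.trans hu0.symm)))
    have key : ∀ t, Gen.dD him (fun u => pts n m La t (e u)) =
        (vd x : ℂ) + t ^ La * (vd (Function.update x u0 0) : ℂ) +
          t ^ (La - 1) * (vd (Function.update x u0 1) : ℂ) := by
      intro t
      unfold Gen.dD
      have hM : (Matrix.of fun j k : Fin i => pts n m La t (e j) (Fin.castLE him k)) =
          Matrix.updateRow (Matrix.vandermonde (fun u => (x u : ℂ))) u0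
            (((fun k : Fin i => ((x u0 : ℝ) : ℂ) ^ (k : ℕ)) +
              t ^ La • (fun k : Fin i => ((0 : ℝ) : ℂ) ^ (k : ℕ))) +
              t ^ (La - 1) • (fun k : Fin i => ((1 : ℝ) : ℂ) ^ (k : ℕ))) := by
        ext j k
        by_cases hj : j = u0
        · subst hj
          have h1 : e j = Fin.last n := Fin.ext (by rw [hu0, Fin.val_last])
          rw [Matrix.updateRow_self, Matrix.of_apply, h1, pts_last]
          simp only [qq, Pi.add_apply, Pi.smul_apply, smul_eq_mul, Fin.val_castLE, hx, hu0,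
            Complex.ofReal_natCast, Complex.ofReal_zero, Complex.ofReal_one]
        · rw [Matrix.updateRow_ne hj, Matrix.of_apply, pts_ne n m La t (hne j hj),
            Matrix.vandermonde_apply]
          simp only [Fin.val_castLE, hx, Complex.ofReal_natCast]
      rw [hM, Matrix.det_updateRow_add, Matrix.det_updateRow_add, Matrix.det_updateRow_smul,
        Matrix.det_updateRow_smul, updateRow_vd, updateRow_vd, updateRow_vd, ← vd_cast,
        ← vd_cast, ← vd_cast, Function.update_eq_self]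
    by_cases h0 : ∃ u, (e u : ℕ) = 0
    · obtain ⟨u1, hu1⟩ := h0
      have hu10 : u1 ≠ u0 := by
        rintro rfl
        omega
      have hz : vd (Function.update x u0 0) = 0 :=
        vd_update_zero u0 u1 0 hu10 (by rw [hx]; simp [hu1])
      by_cases h1 : ∃ u, (e u : ℕ) = 1
      · obtain ⟨u2, hu2⟩ := h1
        have hu20 : u2 ≠ u0 := by
          rintro rfl
          omega
        have hz1 : vd (Function.update x u0 1) = 0 :=
          vd_update_zero u0 u2 1 hu20 (by rw [hx]; simp [hu2])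
        refine ⟨C (vd x : ℂ), fun t => ?_, ?_⟩
        · rw [key, hz, hz1, eval_C]
          simp
        · have hd : dl La e = 0 := by
            unfold dl
            rw [if_pos ⟨u0, hu0⟩, if_pos ⟨u1, hu1⟩, if_pos ⟨u2, hu2⟩]
          rw [hd]
          exact ⟨by rw [natDegree_C], vd x, vd_ne hxi, coeff_C_zero⟩
      · have hz1 : vd (Function.update x u0 1) ≠ 0 :=
          vd_ne (inj_update hxi u0 1 fun u _ hu => h1 ⟨u, by
            have hu' : ((e u : ℕ) : ℝ) = 1 := hu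
            exact_mod_cast hu'⟩)
        refine ⟨C (vd x : ℂ) + X ^ (La - 1) * C (vd (Function.update x u0 1) : ℂ),
          fun t => ?_, ?_⟩
        · rw [key, hz]
          simp only [eval_add, eval_C, eval_mul, eval_pow, eval_X, Complex.ofReal_zero]
          ring
        · have hd : dl La e = La - 1 := by
            unfold dl
            rw [if_pos ⟨u0, hu0⟩, if_pos ⟨u1, hu1⟩, if_neg h1]
          rw [hd]
          refine ⟨natDegree_add_le_of_degree_le ?_ ?_, _, hz1, ?_⟩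
          · rw [natDegree_C]; exact Nat.zero_le _
          · exact (natDegree_mul_C_le _ _).trans (natDegree_X_pow_le _)
          · rw [coeff_add, coeff_C_of_ne_zero (by omega), coeff_mul_C, coeff_X_pow_self, one_mul,
              zero_add]
    · have hz0 : vd (Function.update x u0 0) ≠ 0 :=
        vd_ne (inj_update hxi u0 0 fun u _ hu => h0 ⟨u, by
          have hu' : ((e u : ℕ) : ℝ) = 0 := hu
          exact_mod_cast hu'⟩)
      refine ⟨C (vd x : ℂ) + X ^ La * C (vd (Function.update x u0 0) : ℂ) +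
        X ^ (La - 1) * C (vd (Function.update x u0 1) : ℂ), fun t => ?_, ?_⟩
      · rw [key]
        simp only [eval_add, eval_C, eval_mul, eval_pow, eval_X]
      · have hd : dl La e = La := by
          unfold dl
          rw [if_pos ⟨u0, hu0⟩, if_neg h0]
        rw [hd]
        refine ⟨natDegree_add_le_of_degree_le (natDegree_add_le_of_degree_le ?_ ?_) ?_,
          _, hz0, ?_⟩
        · rw [natDegree_C]; exact Nat.zero_le _
        · exact (natDegree_mul_C_le _ _).trans (natDegree_X_pow_le _)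
        · exact ((natDegree_mul_C_le _ _).trans (natDegree_X_pow_le _)).trans (by omega)
        · rw [coeff_add, coeff_add, coeff_C_of_ne_zero (by omega), coeff_mul_C, coeff_X_pow_self,
            one_mul, zero_add, coeff_mul_C, coeff_X_pow, if_neg (by omega), zero_mul, add_zero]
  · refine ⟨C (vd x : ℂ), fun t => ?_, ?_⟩
    · rw [eval_C, vd_cast]
      unfold Gen.dD
      congr 1
      ext j k
      show pts n m La t (e j) (Fin.castLE him k) = _
      rw [pts_ne n m La t (fun h => hl ⟨j, h⟩), Matrix.vandermonde_apply]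
      simp only [Fin.val_castLE, hx, Complex.ofReal_natCast]
    · have hd : dl La e = 0 := by
        unfold dl
        rw [if_neg hl]
      rw [hd]
      exact ⟨by rw [natDegree_C], vd x, vd_ne hxi, coeff_C_zero⟩

/-- the degree of a splitting -/
def dt {n : ℕ} (La : ℕ) (τ : Fin i ⊕ Fin i ≃ Fin (n + 1)) : ℕ :=
  dl La (fun u => τ (Sum.inl u)) + dl La (fun u => τ (Sum.inr u))

/-- the number of halves with `0`, `1`, last -/
def xt {n : ℕ} (τ : Fin i ⊕ Fin i ≃ Fin (n + 1)) : ℕ :=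
  xl (fun u => τ (Sum.inl u)) + xl (fun u => τ (Sum.inr u))

/-- the number of halves with `0`, last and not `1` -/
def yt {n : ℕ} (τ : Fin i ⊕ Fin i ≃ Fin (n + 1)) : ℕ :=
  yl (fun u => τ (Sum.inl u)) + yl (fun u => τ (Sum.inr u))

lemma nl {n : ℕ} (τ : Fin i ⊕ Fin i ≃ Fin (n + 1)) (v : Fin i) (k : ℕ)
    (h : (τ (Sum.inr v) : ℕ) = k) : ¬ ∃ u, (τ (Sum.inl u) : ℕ) = k := by
  rintro ⟨u, hu⟩
  have h1 := τ.injective (Fin.ext (hu.trans h.symm))
  simp at h1

lemma nr {n : ℕ} (τ : Fin i ⊕ Fin i ≃ Fin (n + 1)) (v : Fin i) (k : ℕ)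
    (h : (τ (Sum.inl v) : ℕ) = k) : ¬ ∃ u, (τ (Sum.inr u) : ℕ) = k := by
  rintro ⟨u, hu⟩
  have h1 := τ.injective (Fin.ext (hu.trans h.symm))
  simp at h1

lemma dt_add {n La : ℕ} (hLa : 1 ≤ La) (τ : Fin i ⊕ Fin i ≃ Fin (n + 1)) :
    dt La τ + La * xt τ + yt τ = La := by
  have h1 := dl_add hLa (fun u => τ (Sum.inl u))
  have h2 := dl_add hLa (fun u => τ (Sum.inr u))
  have h3 : zl (fun u => τ (Sum.inl u)) + zl (fun u => τ (Sum.inr u)) = 1 := by
    unfold zl
    beta_reduce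
    rcases h : τ.symm (Fin.last n) with u | u
    · have h4 : (τ (Sum.inl u) : ℕ) = n := by
        rw [← h, Equiv.apply_symm_apply, Fin.val_last]
      rw [if_pos ⟨u, h4⟩, if_neg (nr τ u n h4)]
    · have h4 : (τ (Sum.inr u) : ℕ) = n := by
        rw [← h, Equiv.apply_symm_apply, Fin.val_last]
      rw [if_neg (nl τ u n h4), if_pos ⟨u, h4⟩]
  have h5 : La * zl (fun u => τ (Sum.inl u)) + La * zl (fun u => τ (Sum.inr u)) = La := by
    rw [← mul_add, h3, mul_one]
  unfold dt xt yt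
  rw [mul_add]
  omega

theorem DD_curve (him : i ≤ m) {n La : ℕ} (hLa : 2 ≤ La) (hn : 2 ≤ n)
    (τ : Fin i ⊕ Fin i ≃ Fin (n + 1)) :
    ∃ f : ℂ[X], (∀ t, DD him τ (pts n m La t) = f.eval t) ∧ LR f (dt La τ) := by
  obtain ⟨f, hf, hf'⟩ := half him hLa hn (fun u => τ (Sum.inl u))
    (fun u v h => Sum.inl_injective (τ.injective h))
  obtain ⟨g, hg, hg'⟩ := half him hLa hn (fun u => τ (Sum.inr u))
    (fun u v h => Sum.inr_injective (τ.injective h))
  refine ⟨f * g, fun t => ?_, hf'.mul hg'⟩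
  rw [eval_mul, ← hf, ← hg]
  rfl

theorem exists_three {n : ℕ} (hn : n + 1 = 2 * i) (h3 : 2 ≤ n) (s0 s1 s2 : Fin i ⊕ Fin i)
    (h01 : s1 ≠ s0) (h02 : s2 ≠ s0) (h12 : s2 ≠ s1) :
    ∃ τ : Fin i ⊕ Fin i ≃ Fin (n + 1), (τ s0 : ℕ) = n ∧ (τ s1 : ℕ) = 0 ∧ (τ s2 : ℕ) = 1 := by
  classical
  obtain ⟨τ, hτ⟩ := ext_tau hn {s0, s1, s2} (fun x => if x = s0 then Fin.last n else
    if x = s1 then ⟨0, by omega⟩ else ⟨1, by omega⟩) (by
      intro x hx y hy hxy
      simp only [Finset.coe_insert, Finset.coe_singleton, Set.mem_insert_iff,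
        Set.mem_singleton_iff] at hx hy
      beta_reduce at hxy
      by_contra hne
      by_cases x0 : x = s0 <;> by_cases y0 : y = s0 <;> by_cases x1 : x = s1 <;>
        by_cases y1 : y = s1 <;>
        simp only [x0, y0, x1, y1, if_true, if_false, h01, h02, h12, Fin.ext_iff, Fin.val_last]
          at hxy <;>
        first
          | omega
          | (apply hne; rw [x0, y0])
          | (apply hne; rw [x1, y1])
          | (apply hne; rw [(hx.resolve_left x0).resolve_left x1,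
              (hy.resolve_left y0).resolve_left y1]))
  refine ⟨τ, ?_, ?_, ?_⟩
  · rw [hτ s0 (by simp), if_pos rfl, Fin.val_last]
  · rw [hτ s1 (by simp), if_neg h01, if_pos rfl]
  · rw [hτ s2 (by simp), if_neg h02, if_neg h12]

theorem GG_curve (hi : 3 ≤ i) (him : i ≤ m) {n La : ℕ} (hn : n + 1 = 2 * i) (hLa : 2 ≤ La)
    (al be ga : ℕ) :
    ∃ f : ℂ[X], (∀ t, GG (n + 1) him al be ga (pts n m La t) = f.eval t) ∧
      LP f (al * (2 * La) + be * (∑ τ : Fin i ⊕ Fin i ≃ Fin (n + 1), 2 * dt La τ) +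
        ga * (∑ τ : Fin i ⊕ Fin i ≃ Fin (n + 1), 2 * dt La τ)) := by
  classical
  have i0 : 0 < i := by omega
  have i1 : 1 < i := by omega
  have i2 : 2 < i := by omega
  have hn2 : 2 ≤ n := by omega
  have hLa1 : 1 ≤ La := by omega
  choose f hf hf' using fun τ : Fin i ⊕ Fin i ≃ Fin (n + 1) => DD_curve him hLa hn2 τ
  have hdt : ∀ τ : Fin i ⊕ Fin i ≃ Fin (n + 1), dt La τ ≤ La := fun τ => by
    have := dt_add hLa1 τ
    omega
  have h1 : LP (∑ τ, f τ ^ 2) (2 * La) := by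
    refine LP.sum _ _ (fun τ => 2 * dt La τ) _ (fun τ _ => (hf' τ).sq)
      (fun τ _ => Nat.mul_le_mul_left 2 (hdt τ)) ?_
    obtain ⟨τ, g0, g1, g2⟩ := exists_three hn hn2 (Sum.inl ⟨0, i0⟩) (Sum.inr ⟨0, i0⟩)
      (Sum.inr ⟨1, i1⟩) (by simp) (by simp) (by simp)
    refine ⟨τ, Finset.mem_univ _, ?_⟩
    have e1 := dt_add hLa1 τ
    have hx : xt τ = 0 := by
      unfold xt xl
      rw [if_neg (fun hh => nl τ _ 0 g1 hh.2.1), if_neg (fun hh => nr τ _ n g0 hh.1)]
    have hy : yt τ = 0 := by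
      unfold yt yl
      rw [if_neg (fun hh => nl τ _ 0 g1 hh.2.1), if_neg (fun hh => nr τ _ n g0 hh.1)]
    rw [hx, hy, mul_zero, add_zero, add_zero] at e1
    show 2 * dt La τ = 2 * La
    rw [e1]
  have h3 : LP (∏ τ, f τ ^ 2) (∑ τ : Fin i ⊕ Fin i ≃ Fin (n + 1), 2 * dt La τ) :=
    LP.prod _ _ _ (fun τ _ => (hf' τ).sq)
  have h2 : LP (∑ τ, ∏ τ' ∈ Finset.univ.erase τ, f τ' ^ 2)
      (∑ τ : Fin i ⊕ Fin i ≃ Fin (n + 1), 2 * dt La τ) := by
    refine LP.sum _ _ (fun τ => ∑ τ' ∈ Finset.univ.erase τ, 2 * dt La τ') _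
      (fun τ _ => LP.prod _ _ _ (fun τ' _ => (hf' τ').sq))
      (fun τ _ => Finset.sum_le_sum_of_subset (Finset.erase_subset _ _)) ?_
    obtain ⟨τ, g0, g1, g2⟩ := exists_three hn hn2 (Sum.inl ⟨0, i0⟩) (Sum.inl ⟨1, i1⟩)
      (Sum.inl ⟨2, i2⟩) (by simp) (by simp) (by simp)
    refine ⟨τ, Finset.mem_univ _, ?_⟩
    have e1 := dt_add hLa1 τ
    have hx : xt τ = 1 := by
      unfold xt xl
      rw [if_pos ⟨⟨_, g0⟩, ⟨_, g1⟩, ⟨_, g2⟩⟩, if_neg (fun hh => nr τ _ n g0 hh.1)]
    have hd : dt La τ = 0 := by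
      rw [hx, mul_one] at e1
      omega
    have e2 := Finset.sum_erase_add Finset.univ (fun τ' => 2 * dt La τ') (Finset.mem_univ τ)
    rw [hd] at e2
    simpa using e2
  refine ⟨_, fun t => ?_, ((h1.pow al).mul (h2.pow be)).mul (h3.pow ga)⟩
  simp only [GG, F1, F2, F3, Pi.mul_apply, Pi.pow_apply, hf, eval_mul, eval_pow,
    eval_finsetSum, eval_prod]

lemma sum_dt {n La : ℕ} (hLa : 1 ≤ La) :
    (∑ τ : Fin i ⊕ Fin i ≃ Fin (n + 1), 2 * dt La τ) +
      2 * La * (∑ τ : Fin i ⊕ Fin i ≃ Fin (n + 1), xt τ) +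
      2 * (∑ τ : Fin i ⊕ Fin i ≃ Fin (n + 1), yt τ) = 2 * La * NB (n + 1) i := by
  rw [Finset.mul_sum, Finset.mul_sum, ← Finset.sum_add_distrib, ← Finset.sum_add_distrib]
  have h : ∀ τ : Fin i ⊕ Fin i ≃ Fin (n + 1), 2 * dt La τ + 2 * La * xt τ + 2 * yt τ =
      2 * La := by
    intro τ
    have := dt_add hLa τ
    linear_combination 2 * this
  rw [Finset.sum_congr rfl (fun τ _ => h τ), Finset.sum_const, Finset.card_univ, smul_eq_mul,
    mul_comm]
  rfl

lemma arith {La N n2 n3 D c h : ℕ} (hLa : n2 * (2 * h) < La) (h2 : 0 < n2) (hN : 1 ≤ N)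
    (hD : D + 2 * La * n3 + 2 * n2 = 2 * La * N) {al al' r r' k k' : ℕ}
    (hr : r < h) (hr' : r' < h) (hk : k < h) (hk' : k' < h)
    (ha : al + ((N - 1) * r + N * (k + 1)) = c) (ha' : al' + ((N - 1) * r' + N * (k' + 1)) = c)
    (he : al * (2 * La) + r * D + (k + 1) * D = al' * (2 * La) + r' * D + (k' + 1) * D) :
    r = r' ∧ k = k' := by
  zify [hN] at *
  have key2 : 2 * ((La : ℤ) * ((r - r') - n3 * ((r + k) - (r' + k')))) =
      2 * ((n2 : ℤ) * ((r + k) - (r' + k'))) := by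
    linear_combination he - 2 * (La : ℤ) * (ha - ha') - (((r : ℤ) + k) - (r' + k')) * hD
  have key : (La : ℤ) * ((r - r') - n3 * ((r + k) - (r' + k'))) =
      (n2 : ℤ) * ((r + k) - (r' + k')) := by linarith
  have hs : ((r : ℤ) + k) - (r' + k') = 0 := by
    have h1 : (La : ℤ) ∣ (n2 : ℤ) * ((r + k) - (r' + k')) := ⟨_, key.symm⟩
    have h3 : |(n2 : ℤ) * ((r + k) - (r' + k'))| < La := by
      rw [abs_mul, abs_of_pos h2]
      have h4 : |((r : ℤ) + k) - (r' + k')| ≤ 2 * h := by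
        rw [abs_le]
        constructor <;> linarith
      calc (n2 : ℤ) * |((r : ℤ) + k) - (r' + k')| ≤ n2 * (2 * h) :=
            mul_le_mul_of_nonneg_left h4 h2.le
        _ < La := hLa
    have h5 := Int.eq_zero_of_abs_lt_dvd h1 h3
    rcases mul_eq_zero.1 h5 with h6 | h6
    · omega
    · exact h6
  rw [hs, mul_zero, mul_zero, sub_zero] at key
  have hLa0 : (La : ℤ) ≠ 0 := by
    have : (0 : ℤ) ≤ n2 * (2 * h) := by positivity
    omega
  rcases mul_eq_zero.1 key with h6 | h6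
  · exact absurd h6 hLa0
  · constructor <;> omega

end H160F

end Vale.Agent.P181.FR
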