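import Vale.Agent.P181.R2.H553.Defs

/-!
Row 6 of the three row bulk: the crude upper bound `((b + 1) ^ 2) ^ a` of the multiplicities in
`Sym^a(Sym^b ℂ^3)`.
-/

set_option autoImplicit false

open scoped TensorProduct
open MvPolynomial

namespace Vale.Agent.P181.H553

open Vale.Agent.P181 Vale.Agent.P181.H280 Vale.Agent.P181.H179

namespace Row6

universe u

/-- The products of the members of a spanning family span the symmetric power. -/
lemma span_family {W : Type u} [AddCommGroup W] [Module ℂ W] {κ : Type} (e : κ → W)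
    (he : Submodule.span ℂ (Set.range e) = ⊤) (n : ℕ) :
    Submodule.span ℂ (Set.range (fun f : Fin n → κ =>
      (SymmetricPower.tprod ℂ (fun i => e (f i)) : Sym[ℂ]^n W))) = ⊤ := by
  set S := Submodule.span ℂ (Set.range (fun f : Fin n → κ =>
      (SymmetricPower.tprod ℂ (fun i => e (f i)) : Sym[ℂ]^n W))) with hS
  rw [eq_top_iff, ← SymmetricPower.span_tprod_eq_top, Submodule.span_le]
  rintro _ ⟨q, rfl⟩
  rw [SetLike.mem_coe, ← Submodule.Quotient.mk_eq_zero S]
  have h := multilinear_eq_zero_of_span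
    (S.mkQ.compMultilinearMap (SymmetricPower.tprod ℂ (ι := Fin n) (M := W)))
    (Set.range e) he ?_ q
  · exact h
  · intro w hw
    choose v hv using hw
    have hw' : w = fun i => e (v i) := by
      funext i; exact (hv i).symm
    subst hw'
    change S.mkQ _ = 0
    rw [Submodule.mkQ_apply, Submodule.Quotient.mk_eq_zero]
    exact Submodule.subset_span ⟨v, rfl⟩

/-- Two words with the same numbers of letters give the same product. -/
lemma tprod_eq_of_card {W : Type u} [AddCommGroup W] [Module ℂ W] {κ : Type} [DecidableEq κ]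
    (e : κ → W) {n : ℕ} (f g : Fin n → κ)
    (h : ∀ y : κ, Fintype.card {x // f x = y} = Fintype.card {x // g x = y}) :
    (SymmetricPower.tprod ℂ (fun i => e (f i)) : Sym[ℂ]^n W) =
      SymmetricPower.tprod ℂ (fun i => e (g i)) := by
  let ε : ∀ y : κ, {x // f x = y} ≃ {x // g x = y} := fun y => Fintype.equivOfCardEq (h y)
  let σ : Equiv.Perm (Fin n) := (Equiv.sigmaFiberEquiv f).symm.trans
    ((Equiv.sigmaCongrRight ε).trans (Equiv.sigmaFiberEquiv g))
  have hσ : ∀ i, g (σ i) = f i := by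
    intro i
    have := ((Equiv.sigmaCongrRight ε) ((Equiv.sigmaFiberEquiv f).symm i)).2.2
    exact this
  have h1 := SymmetricPower.tprod_equiv (R := ℂ) σ (fun i => e (g i))
  rw [← h1]
  congr 1
  funext i
  exact congrArg e (hσ i).symm

lemma finrank_le_card {W : Type u} [AddCommGroup W] [Module ℂ W] {κ : Type} [Fintype κ]
    (v : κ → W) (hv : Submodule.span ℂ (Set.range v) = ⊤) :
    Module.finrank ℂ W ≤ Fintype.card κ := by
  have h := finrank_range_le_card (R := ℂ) v
  unfold Set.finrank at h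
  rw [hv, finrank_top] at h
  exact h

lemma finite_of_span {W : Type u} [AddCommGroup W] [Module ℂ W] {κ : Type} [Fintype κ]
    (v : κ → W) (hv : Submodule.span ℂ (Set.range v) = ⊤) : Module.Finite ℂ W := by
  refine Module.finite_def.2 ?_
  rw [← hv]
  exact Submodule.fg_span (Set.finite_range v)

/-- `dim Sym^n W ≤ (dim W)^n`. -/
lemma sym_bound {W : Type u} [AddCommGroup W] [Module ℂ W] [Module.Finite ℂ W] (n : ℕ) :
    Module.Finite ℂ (Sym[ℂ]^n W) ∧
      Module.finrank ℂ (Sym[ℂ]^n W) ≤ Module.finrank ℂ W ^ n := by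
  have h := span_family (Module.finBasis ℂ W) (Module.finBasis ℂ W).span_eq n
  refine ⟨finite_of_span _ h, (finrank_le_card _ h).trans ?_⟩
  rw [Fintype.card_fun, Fintype.card_fin, Fintype.card_fin]

/-- `dim Sym^b ℂ^3 ≤ (b + 1)^2`. -/
lemma sym_three (b : ℕ) : Module.Finite ℂ (Sym[ℂ]^b (Fin 3 → ℂ)) ∧
    Module.finrank ℂ (Sym[ℂ]^b (Fin 3 → ℂ)) ≤ (b + 1) ^ 2 := by
  classical
  let e : Fin 3 → (Fin 3 → ℂ) := fun j => Pi.basisFun ℂ (Fin 3) j
  have he : Submodule.span ℂ (Set.range e) = ⊤ := (Pi.basisFun ℂ (Fin 3)).span_eq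
  have h := span_family e he b
  let F : (Fin b → Fin 3) → Sym[ℂ]^b (Fin 3 → ℂ) := fun f =>
    SymmetricPower.tprod ℂ (fun i => e (f i))
  have hle : ∀ (f : Fin b → Fin 3) (y : Fin 3), Fintype.card {x // f x = y} < b + 1 := by
    intro f y
    have h1 := Fintype.card_subtype_le (fun x : Fin b => f x = y)
    rw [Fintype.card_fin] at h1
    omega
  let c : (Fin b → Fin 3) → Fin (b + 1) × Fin (b + 1) := fun f =>
    (⟨Fintype.card {x // f x = 0}, hle f 0⟩, ⟨Fintype.card {x // f x = 1}, hle f 1⟩)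
  have hsum : ∀ f : Fin b → Fin 3, Fintype.card {x // f x = 0} + Fintype.card {x // f x = 1} +
      Fintype.card {x // f x = 2} = b := by
    intro f
    have h1 : Fintype.card (Σ y : Fin 3, {x // f x = y}) = b := by
      rw [Fintype.card_congr (Equiv.sigmaFiberEquiv f), Fintype.card_fin]
    rw [Fintype.card_sigma, Fin.sum_univ_three] at h1
    exact h1
  have hc : ∀ f g : Fin b → Fin 3, c f = c g → F f = F g := by
    intro f g hfg
    have h0 : Fintype.card {x // f x = 0} = Fintype.card {x // g x = 0} :=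
      congrArg (fun z : Fin (b + 1) × Fin (b + 1) => (z.1 : ℕ)) hfg
    have h1 : Fintype.card {x // f x = 1} = Fintype.card {x // g x = 1} :=
      congrArg (fun z : Fin (b + 1) × Fin (b + 1) => (z.2 : ℕ)) hfg
    apply tprod_eq_of_card
    intro y
    have hf := hsum f
    have hg := hsum g
    fin_cases y
    · exact h0
    · exact h1
    · change Fintype.card {x // f x = 2} = Fintype.card {x // g x = 2}
      omega
  let G : Fin (b + 1) × Fin (b + 1) → Sym[ℂ]^b (Fin 3 → ℂ) := fun z =>
    if hz : ∃ f, c f = z then F hz.choose else 0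
  have hG : ∀ f, G (c f) = F f := by
    intro f
    have hz : ∃ g, c g = c f := ⟨f, rfl⟩
    have : G (c f) = F hz.choose := dif_pos hz
    rw [this]
    exact hc _ _ hz.choose_spec
  have hspan : Submodule.span ℂ (Set.range G) = ⊤ := by
    rw [eq_top_iff, ← h]
    apply Submodule.span_mono
    rintro _ ⟨f, rfl⟩
    exact ⟨c f, hG f⟩
  refine ⟨finite_of_span _ hspan, (finrank_le_card _ hspan).trans ?_⟩
  rw [Fintype.card_prod, Fintype.card_fin, sq]

end Row6

/-- ROW 6. Crude upper bound. -/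
theorem plethMult_le_pow (a b : ℕ) (lam : Fin 3 → ℕ) :
    plethMult a b 3 lam ≤ ((b + 1) ^ 2) ^ a := by
  have h1 := (Row6.sym_three b).1
  have h2 := (Row6.sym_three b).2
  have h3 := (Row6.sym_bound (W := Sym[ℂ]^b (Fin 3 → ℂ)) a).1
  have h4 := (Row6.sym_bound (W := Sym[ℂ]^b (Fin 3 → ℂ)) a).2
  have h3' : Module.Finite ℂ (Pleth a b 3) := h3
  have h4' : Module.finrank ℂ (Pleth a b 3) ≤
      Module.finrank ℂ (Sym[ℂ]^b (Fin 3 → ℂ)) ^ a := h4
  have h5 : plethMult a b 3 lam ≤ Module.finrank ℂ (Pleth a b 3) :=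
    Submodule.finrank_le (hwSpace lam (plethAct a b 3))
  exact h5.trans (h4'.trans (Nat.pow_le_pow_left h2 a))

end Vale.Agent.P181.H553
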