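import Vale.Agent.P181.R2.H160.FamBase

/-!
P181 row W7 (family): symmetric highest weight functions of `2 i` points, of weight
`4 c (1^i)`, vanishing on the diagonals, with `h ^ 2` linearly independent functions of the
last point.
-/

set_option autoImplicit false

namespace Vale.Agent.P181.FR

open Vale.Agent.P181 Vale.Agent.P181.H280 Vale.Agent.P181.H54

open H160F in
/-- **Row W7.** -/
theorem family {m i : ℕ} (hi : 3 ≤ i) (him : i ≤ m) : ∃ (N : ℕ) (P : Fin (2 * i - 1) → Fin m → ℂ),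
    ∀ c h : ℕ, N * (h + 1) ≤ c →
    ∃ G : Fin h → Fin h → ((Fin (2 * i - 1 + 1) → Fin m → ℂ) → ℂ),
      (∀ r k, G r k ∈ MP (2 * i - 1 + 1) m (2 * c)) ∧
      (∀ r k (σ : Equiv.Perm (Fin (2 * i - 1 + 1))) p, G r k (fun j => p (σ j)) = G r k p) ∧
      (∀ r k, HWF (2 * i - 1 + 1) m ((4 * c) • om m i) (G r k)) ∧
      (∀ r k p (u v : Fin (2 * i - 1 + 1)), u ≠ v → p u = p v → G r k p = 0) ∧
      LinearIndependent ℂ (fun rk : Fin h × Fin h => fun q : Fin m → ℂ =>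
        G rk.1 rk.2 (Fin.snoc (α := fun _ => Fin m → ℂ) P q)) := by
  refine ⟨2 * NB (2 * i - 1 + 1) i, fun j v => ((j : ℕ) : ℂ) ^ (v : ℕ), fun c h hc => ?_⟩
  have hn : 2 * i - 1 + 1 = 2 * i := by omega
  have hn2 : 2 ≤ 2 * i - 1 := by omega
  set N := NB (2 * i - 1 + 1) i with hN
  have hb : ∀ r k : ℕ, r < h → k < h → (N - 1) * r + N * (k + 1) ≤ c := by
    intro r k hr hk
    have h1 : (N - 1) * r ≤ N * h := Nat.mul_le_mul (Nat.sub_le _ _) hr.le
    have h2 : N * (k + 1) ≤ N * h := Nat.mul_le_mul_left _ hk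
    have h3 : N * h + N * h ≤ 2 * N * (h + 1) := by nlinarith
    omega
  have hsum : ∀ r k : Fin h, (c - ((N - 1) * (r : ℕ) + N * ((k : ℕ) + 1))) +
      (N - 1) * (r : ℕ) + N * ((k : ℕ) + 1) = c := by
    intro r k
    have := hb r k r.2 k.2
    omega
  refine ⟨fun r k => GG (2 * i - 1 + 1) him (c - ((N - 1) * (r : ℕ) + N * ((k : ℕ) + 1))) r
    ((k : ℕ) + 1), ?_, ?_, ?_, ?_, ?_⟩
  · intro r k
    refine Gen.MP_cast ?_ (GG_MP him _ _ _)
    rw [← hN, hsum r k]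
  · intro r k σ p
    exact GG_sy him _ _ _ σ p
  · intro r k
    have h1 := GG_wt (B := 2 * i - 1 + 1) him (c - ((N - 1) * (r : ℕ) + N * ((k : ℕ) + 1))) r
      ((k : ℕ) + 1)
    rw [← hN, hsum r k] at h1
    exact h1
  · intro r k p u v huv hp
    exact GG_zero hi hn him _ _ _ (Nat.succ_ne_zero _) p huv hp
  · set n2 := ∑ τ : Fin i ⊕ Fin i ≃ Fin (2 * i - 1 + 1), yt τ with hn2'
    have hpos : 0 < n2 := by
      obtain ⟨τ, g0, g1, g2⟩ := exists_three hn hn2 (Sum.inl ⟨0, by omega⟩)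
        (Sum.inl ⟨1, by omega⟩) (Sum.inr ⟨0, by omega⟩) (by simp) (by simp) (by simp)
      refine Finset.sum_pos' (fun _ _ => Nat.zero_le _) ⟨τ, Finset.mem_univ _, ?_⟩
      unfold yt yl
      rw [if_pos ⟨⟨_, g0⟩, ⟨_, g1⟩, nl τ _ 1 g2⟩]
      omega
    have hNpos : 1 ≤ N := by
      rw [hN]
      unfold NB
      obtain ⟨τ, -⟩ := exists_three hn hn2 (Sum.inl ⟨0, by omega⟩)
        (Sum.inl ⟨1, by omega⟩) (Sum.inr ⟨0, by omega⟩) (by simp) (by simp) (by simp)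
      exact Fintype.card_pos_iff.2 ⟨τ⟩
    set La := n2 * (2 * h) + 2 with hLa
    choose f hf hf' using fun rk : Fin h × Fin h => GG_curve hi him hn
      (by omega : 2 ≤ La) (c - ((N - 1) * (rk.1 : ℕ) + N * ((rk.2 : ℕ) + 1))) rk.1
      ((rk.2 : ℕ) + 1)
    refine li_of_LP _ (qq (2 * i - 1) m La) f _ ?_ (fun rk t => hf rk t) hf'
    rintro ⟨r, k⟩ ⟨r', k'⟩ heq
    have h1 := arith (La := La) (N := N) (n2 := n2) (h := h) (c := c) (by omega) hpos hNpos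
      (sum_dt (i := i) (n := 2 * i - 1) (La := La) (by omega)) r.2 r'.2 k.2 k'.2
      (Nat.sub_add_cancel (hb r k r.2 k.2)) (Nat.sub_add_cancel (hb r' k' r'.2 k'.2)) heq
    exact Prod.ext (Fin.ext h1.1) (Fin.ext h1.2)

end Vale.Agent.P181.FR
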