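import Vale.Agent.P181.R2.H160.FamBase

/-!
P181 row Y1 (family2): symmetric highest weight functions of `2 i` points, of weight
`2 i N (h1 + 1) (1^2) + 4 N (h2 + 1) (1^i)`, vanishing on the diagonals, with `h1 h2` linearly
independent functions of the last point.
-/

set_option autoImplicit false

namespace Vale.Agent.P181.FR

open Vale.Agent.P181 Vale.Agent.P181.H280 Vale.Agent.P181.H54

namespace H160Y

open Polynomial H160F

variable {B m i : ℕ}

/-- the pair number `u` of the splitting -/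
def pr (τ : Fin i ⊕ Fin i ≃ Fin B) (u : Fin i) : Fin 2 → Fin B := fun s =>
  τ (if s = 0 then Sum.inl u else Sum.inr u)

lemma pr_inj (τ : Fin i ⊕ Fin i ≃ Fin B) (u : Fin i) : Function.Injective (pr τ u) := by
  intro s s' h
  have h1 := τ.injective h
  by_cases h2 : s = 0 <;> by_cases h3 : s' = 0
  · rw [h2, h3]
  · rw [if_pos h2, if_neg h3] at h1; simp at h1
  · rw [if_neg h2, if_pos h3] at h1; simp at h1
  · omega

/-- product of the `2 × 2` brackets of the pairs -/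
noncomputable def ZZ (hm : 2 ≤ m) (τ : Fin i ⊕ Fin i ≃ Fin B) (p : Fin B → Fin m → ℂ) : ℂ :=
  ∏ u, Gen.dD hm (fun s => p (pr τ u s))

theorem ZZ_MP (hm : 2 ≤ m) (τ : Fin i ⊕ Fin i ≃ Fin B) : ZZ hm τ ∈ MP B m 1 := by
  have h : ZZ hm τ = ∑ φ : Fin i → Equiv.Perm (Fin 2),
      (∏ u, ((Equiv.Perm.sign (φ u) : ℤ) : ℂ)) •
        (fun p : Fin B → Fin m → ℂ => ∏ j, p j (Sum.elim (fun u => Fin.castLE hm (φ u 0))
          (fun u => Fin.castLE hm (φ u 1)) (τ.symm j))) := by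
    funext p
    unfold ZZ
    have h1 : ∀ u, Gen.dD hm (fun s => p (pr τ u s)) = ∑ σ : Equiv.Perm (Fin 2),
        ((Equiv.Perm.sign σ : ℤ) : ℂ) * (p (τ (Sum.inl u)) (Fin.castLE hm (σ 0)) *
          p (τ (Sum.inr u)) (Fin.castLE hm (σ 1))) := by
      intro u
      unfold Gen.dD
      rw [← Matrix.det_transpose, Matrix.det_apply']
      refine Finset.sum_congr rfl fun σ _ => ?_
      rw [Fin.prod_univ_two]
      rfl
    rw [Finset.prod_congr rfl (fun u _ => h1 u), Finset.prod_univ_sum, Finset.sum_apply,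
      Fintype.piFinset_univ]
    refine Finset.sum_congr rfl fun φ _ => ?_
    rw [Pi.smul_apply, smul_eq_mul, ← Equiv.prod_comp τ, Fintype.prod_sum_type]
    simp only [Equiv.symm_apply_apply, Sum.elim_inl, Sum.elim_inr, Finset.prod_mul_distrib]
  rw [h]
  exact Submodule.sum_mem _ fun φ _ => Submodule.smul_mem _ _ (MP_coord _)

theorem ZZ_wt (hm : 2 ≤ m) (τ : Fin i ⊕ Fin i ≃ Fin B) {g : Matrix (Fin m) (Fin m) ℂ}
    (hg : IsBorel g) (p : Fin B → Fin m → ℂ) :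
    ZZ hm τ (fun j => Matrix.vecMul (p j) g) = (∏ k, g k k ^ om m 2 k) ^ i * ZZ hm τ p := by
  unfold ZZ
  rw [Finset.prod_congr rfl (fun u _ => Gen.dD_wt hm hg (fun s => p (pr τ u s))),
    Finset.prod_mul_distrib, Finset.prod_const, Finset.card_univ, Fintype.card_fin]

/-- sum -/
noncomputable def A1 (B i : ℕ) (hm : 2 ≤ m) : (Fin B → Fin m → ℂ) → ℂ := fun p =>
  ∑ τ : Fin i ⊕ Fin i ≃ Fin B, ZZ hm τ p ^ 2

/-- product -/
noncomputable def A3 (B i : ℕ) (hm : 2 ≤ m) : (Fin B → Fin m → ℂ) → ℂ := fun p =>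
  ∏ τ : Fin i ⊕ Fin i ≃ Fin B, ZZ hm τ p ^ 2

theorem Zsq_MP (hm : 2 ≤ m) (τ : Fin i ⊕ Fin i ≃ Fin B) : ZZ hm τ ^ 2 ∈ MP B m 2 :=
  Gen.MP_cast (by norm_num) (Gen.MP_pow (ZZ_MP hm τ) 2)

theorem A1_MP (hm : 2 ≤ m) : A1 B i hm ∈ MP B m 2 := by
  have h : A1 B i hm = ∑ τ : Fin i ⊕ Fin i ≃ Fin B, ZZ hm τ ^ 2 := by
    funext p
    rw [Finset.sum_apply]
    rfl
  rw [h]
  exact Submodule.sum_mem _ fun τ _ => Zsq_MP hm τ

theorem A3_MP (hm : 2 ≤ m) : A3 B i hm ∈ MP B m (NB B i * 2) := by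
  have h : A3 B i hm = ∏ τ : Fin i ⊕ Fin i ≃ Fin B, ZZ hm τ ^ 2 := by
    funext p
    rw [Finset.prod_apply]
    rfl
  rw [h]
  exact MP_prod _ _ fun τ _ => Zsq_MP hm τ

/-- the family -/
noncomputable def HH (B : ℕ) (hm : 2 ≤ m) (him : i ≤ m) (x y z w : ℕ) :
    (Fin B → Fin m → ℂ) → ℂ :=
  A3 B i hm ^ x * A1 B i hm ^ y * (F3 B him ^ z * F1 B him ^ w)

theorem HH_MP (hm : 2 ≤ m) (him : i ≤ m) (x y z w : ℕ) :
    HH B hm him x y z w ∈ MP B m (2 * (NB B i * x + y) + 2 * (NB B i * z + w)) :=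
  Gen.MP_cast (by ring) (MP_mul (MP_mul (Gen.MP_pow (A3_MP hm) x) (Gen.MP_pow (A1_MP hm) y))
    (MP_mul (Gen.MP_pow (F3_MP him) z) (Gen.MP_pow (F1_MP him) w)))

theorem HH_wt (hm : 2 ≤ m) (him : i ≤ m) (x y z w : ℕ) :
    HWF B m ((2 * i * (NB B i * x + y)) • om m 2 + (4 * (NB B i * z + w)) • om m i)
      (HH B hm him x y z w) := by
  intro g hg p
  rw [Gen.wt_add, Gen.wt_smul, Gen.wt_smul]
  have e1 : F1 B him (fun j => Matrix.vecMul (p j) g) =
      (∏ k, g k k ^ om m i k) ^ 4 * F1 B him p := by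
    unfold F1
    rw [Finset.mul_sum]
    refine Finset.sum_congr rfl fun τ _ => ?_
    rw [DD_wt him τ hg]
    ring
  have e3 : F3 B him (fun j => Matrix.vecMul (p j) g) =
      (∏ k, g k k ^ om m i k) ^ (4 * NB B i) * F3 B him p := by
    unfold F3 NB
    rw [pow_mul, ← Finset.card_univ, ← Finset.prod_const, ← Finset.prod_mul_distrib]
    refine Finset.prod_congr rfl fun τ _ => ?_
    rw [DD_wt him τ hg]
    ring
  have a1 : A1 B i hm (fun j => Matrix.vecMul (p j) g) =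
      (∏ k, g k k ^ om m 2 k) ^ (2 * i) * A1 B i hm p := by
    unfold A1
    rw [Finset.mul_sum]
    refine Finset.sum_congr rfl fun τ _ => ?_
    rw [ZZ_wt hm τ hg]
    ring
  have a3 : A3 B i hm (fun j => Matrix.vecMul (p j) g) =
      (∏ k, g k k ^ om m 2 k) ^ (2 * i * NB B i) * A3 B i hm p := by
    unfold A3 NB
    rw [pow_mul, ← Finset.card_univ, ← Finset.prod_const, ← Finset.prod_mul_distrib]
    refine Finset.prod_congr rfl fun τ _ => ?_
    rw [ZZ_wt hm τ hg]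
    ring
  unfold HH
  simp only [Pi.mul_apply, Pi.pow_apply, e1, e3, a1, a3]
  ring

theorem ZZ_tr (hm : 2 ≤ m) (σ : Equiv.Perm (Fin B)) (τ : Fin i ⊕ Fin i ≃ Fin B)
    (p : Fin B → Fin m → ℂ) : ZZ hm τ (fun j => p (σ j)) = ZZ hm (tr σ τ) p := rfl

theorem HH_sy (hm : 2 ≤ m) (him : i ≤ m) (x y z w : ℕ) (σ : Equiv.Perm (Fin B))
    (p : Fin B → Fin m → ℂ) :
    HH B hm him x y z w (fun j => p (σ j)) = HH B hm him x y z w p := by
  have e1 : F1 B him (fun j => p (σ j)) = F1 B him p := by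
    unfold F1
    simp only [DD_tr]
    exact Equiv.sum_comp (tr σ) (fun τ => DD him τ p ^ 2)
  have e3 : F3 B him (fun j => p (σ j)) = F3 B him p := by
    unfold F3
    simp only [DD_tr]
    exact Equiv.prod_comp (tr σ) (fun τ => DD him τ p ^ 2)
  have a1 : A1 B i hm (fun j => p (σ j)) = A1 B i hm p := by
    unfold A1
    simp only [ZZ_tr]
    exact Equiv.sum_comp (tr σ) (fun τ => ZZ hm τ p ^ 2)
  have a3 : A3 B i hm (fun j => p (σ j)) = A3 B i hm p := by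
    unfold A3
    simp only [ZZ_tr]
    exact Equiv.prod_comp (tr σ) (fun τ => ZZ hm τ p ^ 2)
  unfold HH
  simp only [Pi.mul_apply, Pi.pow_apply, e1, e3, a1, a3]

theorem HH_zero (hm : 2 ≤ m) (hi : 3 ≤ i) (hB : B = 2 * i) (him : i ≤ m) (x y z w : ℕ)
    (hz : z ≠ 0) (p : Fin B → Fin m → ℂ) {u v : Fin B} (huv : u ≠ v) (h : p u = p v) :
    HH B hm him x y z w p = 0 := by
  have h1 := GG_zero hi hB him 0 0 1 one_ne_zero p huv h
  unfold GG at h1
  simp only [Pi.mul_apply, Pi.one_apply, pow_zero, pow_one, one_mul] at h1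
  unfold HH
  simp only [Pi.mul_apply, Pi.pow_apply]
  rw [h1, zero_pow hz, zero_mul, mul_zero]

/-- degree of a splitting -/
def ds {n : ℕ} (La : ℕ) (τ : Fin i ⊕ Fin i ≃ Fin (n + 1)) : ℕ := ∑ u, dl La (pr τ u)

/-- number of pairs `0`, last -/
def ws {n : ℕ} (τ : Fin i ⊕ Fin i ≃ Fin (n + 1)) : ℕ := ∑ u, yl (pr τ u)

lemma mem_pr {n : ℕ} (τ : Fin i ⊕ Fin i ≃ Fin (n + 1)) (u : Fin i) (k : ℕ)
    (s : Fin i ⊕ Fin i) (hs : (τ s : ℕ) = k) (h : ∃ v, (pr τ u v : ℕ) = k) :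
    s = Sum.inl u ∨ s = Sum.inr u := by
  obtain ⟨v, hv⟩ := h
  have h1 := τ.injective (Fin.ext (hs.trans hv.symm))
  by_cases h2 : v = 0
  · rw [if_pos h2] at h1; exact Or.inl h1
  · rw [if_neg h2] at h1; exact Or.inr h1

lemma ds_add {n La : ℕ} (hn : 2 ≤ n) (hLa : 1 ≤ La) (τ : Fin i ⊕ Fin i ≃ Fin (n + 1)) :
    ds La τ + ws τ = La := by
  have h1 : ∀ u, dl La (pr τ u) + yl (pr τ u) = La * zl (pr τ u) := by
    intro u
    have h2 := dl_add hLa (pr τ u)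
    have h3 : xl (pr τ u) = 0 := by
      unfold xl
      rw [if_neg]
      rintro ⟨⟨a, ha⟩, ⟨b, hb⟩, ⟨c, hc⟩⟩
      have hab : a ≠ b := by rintro rfl; omega
      have hac : a ≠ c := by rintro rfl; omega
      have hbc : b ≠ c := by rintro rfl; omega
      omega
    rw [h3, mul_zero, add_zero] at h2
    exact h2
  have h4 : ∑ u, zl (pr τ u) = 1 := by
    have key : ∀ u0 : Fin i, (∃ v, (pr τ u0 v : ℕ) = n) →
        (∀ u, u ≠ u0 → ¬ ∃ v, (pr τ u v : ℕ) = n) → ∑ u, zl (pr τ u) = 1 := by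
      intro u0 h5 h6
      rw [Finset.sum_eq_single u0]
      · unfold zl; rw [if_pos h5]
      · intro u _ hu; unfold zl; rw [if_neg (h6 u hu)]
      · intro h; exact absurd (Finset.mem_univ _) h
    rcases h : τ.symm (Fin.last n) with u | u
    · have h7 : (τ (Sum.inl u) : ℕ) = n := by
        rw [← h, Equiv.apply_symm_apply, Fin.val_last]
      refine key u ⟨0, h7⟩ fun u' hu' h8 => ?_
      rcases mem_pr τ u' n _ h7 h8 with h9 | h9
      · exact hu' (Sum.inl_injective h9).symm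
      · simp at h9
    · have h7 : (τ (Sum.inr u) : ℕ) = n := by
        rw [← h, Equiv.apply_symm_apply, Fin.val_last]
      refine key u ⟨1, h7⟩ fun u' hu' h8 => ?_
      rcases mem_pr τ u' n _ h7 h8 with h9 | h9
      · simp at h9
      · exact hu' (Sum.inr_injective h9).symm
  unfold ds ws
  rw [← Finset.sum_add_distrib, Finset.sum_congr rfl (fun u _ => h1 u), ← Finset.mul_sum, h4,
    mul_one]

theorem LR_prod {ι : Type*} (s : Finset ι) (f : ι → ℂ[X]) (d : ι → ℕ)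
    (h : ∀ i ∈ s, LR (f i) (d i)) : LR (∏ i ∈ s, f i) (∑ i ∈ s, d i) := by
  classical
  induction s using Finset.induction_on with
  | empty =>
    rw [Finset.prod_empty, Finset.sum_empty]
    exact ⟨by simp, 1, one_ne_zero, by simp⟩
  | insert a s ha ih =>
    rw [Finset.prod_insert ha, Finset.sum_insert ha]
    exact (h a (Finset.mem_insert_self a s)).mul
      (ih fun i hi => h i (Finset.mem_insert_of_mem hi))

theorem ZZ_curve (hm : 2 ≤ m) {n La : ℕ} (hLa : 2 ≤ La) (hn : 2 ≤ n)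
    (τ : Fin i ⊕ Fin i ≃ Fin (n + 1)) :
    ∃ f : ℂ[X], (∀ t, ZZ hm τ (pts n m La t) = f.eval t) ∧ LR f (ds La τ) := by
  choose f hf hf' using fun u => half hm hLa hn (pr τ u) (pr_inj τ u)
  refine ⟨∏ u, f u, fun t => ?_, LR_prod _ _ _ fun u _ => hf' u⟩
  rw [eval_prod]
  exact Finset.prod_congr rfl fun u _ => hf u t

theorem HH_curve (hm : 2 ≤ m) (hi : 3 ≤ i) (him : i ≤ m) {n La : ℕ} (hn : n + 1 = 2 * i)
    (hLa : 2 ≤ La) (x y z w : ℕ) :
    ∃ f : ℂ[X], (∀ t, HH (n + 1) hm him x y z w (pts n m La t) = f.eval t) ∧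
      LP f (x * (∑ τ : Fin i ⊕ Fin i ≃ Fin (n + 1), 2 * ds La τ) + y * (2 * La) +
        (z * (∑ τ : Fin i ⊕ Fin i ≃ Fin (n + 1), 2 * dt La τ) + w * (2 * La))) := by
  classical
  have i0 : 0 < i := by omega
  have i1 : 1 < i := by omega
  have i2 : 2 < i := by omega
  have hn2 : 2 ≤ n := by omega
  have hLa1 : 1 ≤ La := by omega
  obtain ⟨f1, g1, l1⟩ := GG_curve hi him hn hLa 1 0 0
  obtain ⟨f3, g3, l3⟩ := GG_curve hi him hn hLa 0 0 1
  unfold GG at g1 g3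
  simp only [Pi.mul_apply, Pi.one_apply, pow_zero, pow_one, one_mul, mul_one] at g1 g3
  rw [one_mul, zero_mul, add_zero, add_zero] at l1
  rw [zero_mul, zero_mul, one_mul, zero_add, zero_add] at l3
  choose f hf hf' using fun τ : Fin i ⊕ Fin i ≃ Fin (n + 1) => ZZ_curve hm hLa hn2 τ
  have hds : ∀ τ : Fin i ⊕ Fin i ≃ Fin (n + 1), ds La τ ≤ La := fun τ => by
    have := ds_add hn2 hLa1 τ
    omega
  have h1 : LP (∑ τ, f τ ^ 2) (2 * La) := by
    refine LP.sum _ _ (fun τ => 2 * ds La τ) _ (fun τ _ => (hf' τ).sq)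
      (fun τ _ => Nat.mul_le_mul_left 2 (hds τ)) ?_
    obtain ⟨τ, k0, k1, k2⟩ := exists_three hn hn2 (Sum.inl ⟨0, i0⟩) (Sum.inl ⟨1, i1⟩)
      (Sum.inl ⟨2, i2⟩) (by simp) (by simp) (by simp)
    refine ⟨τ, Finset.mem_univ _, ?_⟩
    have e1 := ds_add hn2 hLa1 τ
    have hx : ws τ = 0 := by
      unfold ws
      refine Finset.sum_eq_zero fun u _ => ?_
      unfold yl
      rw [if_neg]
      rintro ⟨c1, c2, -⟩
      rcases mem_pr τ u n _ k0 c1 with d1 | d1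
      · rcases mem_pr τ u 0 _ k1 c2 with d2 | d2
        · have := (Sum.inl_injective d1).trans (Sum.inl_injective d2).symm
          simp at this
        · simp at d2
      · simp at d1
    rw [hx, add_zero] at e1
    show 2 * ds La τ = 2 * La
    rw [e1]
  have h3 : LP (∏ τ, f τ ^ 2) (∑ τ : Fin i ⊕ Fin i ≃ Fin (n + 1), 2 * ds La τ) :=
    LP.prod _ _ _ (fun τ _ => (hf' τ).sq)
  refine ⟨_, fun t => ?_, ((h3.pow x).mul (h1.pow y)).mul ((l3.pow z).mul (l1.pow w))⟩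
  simp only [HH, Pi.mul_apply, Pi.pow_apply, eval_mul, eval_pow, g1, g3]
  simp only [A1, A3, hf, eval_finsetSum, eval_prod, eval_pow]

lemma sum_ds {n La : ℕ} (hn : 2 ≤ n) (hLa : 1 ≤ La) :
    (∑ τ : Fin i ⊕ Fin i ≃ Fin (n + 1), 2 * ds La τ) +
      2 * (∑ τ : Fin i ⊕ Fin i ≃ Fin (n + 1), ws τ) = 2 * La * NB (n + 1) i := by
  rw [Finset.mul_sum, ← Finset.sum_add_distrib]
  have h : ∀ τ : Fin i ⊕ Fin i ≃ Fin (n + 1), 2 * ds La τ + 2 * ws τ = 2 * La := by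
    intro τ
    have := ds_add hn hLa τ
    linear_combination 2 * this
  rw [Finset.sum_congr rfl (fun τ _ => h τ), Finset.sum_const, Finset.card_univ, smul_eq_mul,
    mul_comm]
  rfl

lemma arith2 {La N n0 n2 n3 D E h1 h2 : ℕ} (hLa : n0 * h1 < La) (h0 : 0 < n0) (h3 : 0 < n3)
    (hE : E + 2 * n0 = 2 * La * N) (hD : D + 2 * La * n3 + 2 * n2 = 2 * La * N)
    {r r' k k' : ℕ} (hr : r < h1) (hr' : r' < h1) (hk : k < h2) (hk' : k' < h2)
    (he : (r + 1) * E + N * (h1 - r) * (2 * La) + ((k + 1) * D + N * (h2 - k) * (2 * La)) =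
      (r' + 1) * E + N * (h1 - r') * (2 * La) + ((k' + 1) * D + N * (h2 - k') * (2 * La))) :
    r = r' ∧ k = k' := by
  obtain ⟨a, rfl⟩ := Nat.exists_eq_add_of_lt hr
  obtain ⟨b, rfl⟩ := Nat.exists_eq_add_of_lt hk
  have e1 : r + a + 1 - r = a + 1 := by omega
  have e2 : k + b + 1 - k = b + 1 := by omega
  rw [e1, e2] at he
  obtain ⟨a', ha'⟩ := Nat.exists_eq_add_of_lt hr'
  obtain ⟨b', hb'⟩ := Nat.exists_eq_add_of_lt hk'
  have e3 : r + a + 1 - r' = a' + 1 := by omega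
  have e4 : k + b + 1 - k' = b' + 1 := by omega
  rw [e3, e4] at he
  zify at *
  have key2 : 2 * ((n0 : ℤ) * (r - r')) = 2 * (-((n2 : ℤ) + La * n3) * (k - k')) := by
    linear_combination (-1 : ℤ) * he + ((r : ℤ) - r') * hE + ((k : ℤ) - k') * hD +
      2 * (La : ℤ) * N * (ha' + hb')
  have key : (n0 : ℤ) * (r - r') = -((n2 : ℤ) + La * n3) * (k - k') := by linarith
  have hk0 : (k : ℤ) - k' = 0 := by
    by_contra hne
    have h4 : (1 : ℤ) ≤ |(k : ℤ) - k'| := Int.one_le_abs hne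
    have h5 : |(n0 : ℤ) * (r - r')| = ((n2 : ℤ) + La * n3) * |(k : ℤ) - k'| := by
      rw [key, abs_mul, abs_neg, abs_of_nonneg (by positivity)]
    have h6 : |(n0 : ℤ) * (r - r')| ≤ n0 * (r + a + 1) := by
      rw [abs_mul, abs_of_pos h0]
      refine mul_le_mul_of_nonneg_left ?_ h0.le
      rw [abs_le]
      constructor <;> linarith
    have h7 : (La : ℤ) ≤ ((n2 : ℤ) + La * n3) * |(k : ℤ) - k'| := by
      have h8 : (La : ℤ) ≤ (n2 : ℤ) + La * n3 := by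
        have : (La : ℤ) * 1 ≤ La * n3 := mul_le_mul_of_nonneg_left (by omega) (by positivity)
        have : (0 : ℤ) ≤ n2 := by positivity
        linarith
      nlinarith
    linarith
  rw [hk0, mul_zero] at key
  rcases mul_eq_zero.1 key with h9 | h9
  · omega
  · constructor <;> omega

end H160Y

open H160F H160Y in
/-- **Row Y1.** -/
theorem family2 {m i : ℕ} (hi : 3 ≤ i) (him : i ≤ m) :
    ∃ (N : ℕ) (P : Fin (2 * i - 1) → Fin m → ℂ), 0 < N ∧ ∀ h1 h2 : ℕ,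
    ∃ G : Fin h1 → Fin h2 → ((Fin (2 * i - 1 + 1) → Fin m → ℂ) → ℂ),
      (∀ r k, G r k ∈ MP (2 * i - 1 + 1) m (2 * N * (h1 + 1) + 2 * N * (h2 + 1))) ∧
      (∀ r k (σ : Equiv.Perm (Fin (2 * i - 1 + 1))) p, G r k (fun j => p (σ j)) = G r k p) ∧
      (∀ r k, HWF (2 * i - 1 + 1) m
        ((2 * i * N * (h1 + 1)) • om m 2 + (4 * N * (h2 + 1)) • om m i) (G r k)) ∧
      (∀ r k p (u v : Fin (2 * i - 1 + 1)), u ≠ v → p u = p v → G r k p = 0) ∧
      LinearIndependent ℂ (fun rk : Fin h1 × Fin h2 => fun q : Fin m → ℂ =>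
        G rk.1 rk.2 (Fin.snoc (α := fun _ => Fin m → ℂ) P q)) := by
  have hn : 2 * i - 1 + 1 = 2 * i := by omega
  have hn2 : 2 ≤ 2 * i - 1 := by omega
  have hm : 2 ≤ m := by omega
  have hNpos : 0 < NB (2 * i - 1 + 1) i := by
    unfold NB
    obtain ⟨τ, -⟩ := exists_three hn hn2 (Sum.inl ⟨0, by omega⟩)
      (Sum.inl ⟨1, by omega⟩) (Sum.inr ⟨0, by omega⟩) (by simp) (by simp) (by simp)
    exact Fintype.card_pos_iff.2 ⟨τ⟩
  refine ⟨NB (2 * i - 1 + 1) i, fun j v => ((j : ℕ) : ℂ) ^ (v : ℕ), hNpos, fun h1 h2 => ?_⟩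
  set N := NB (2 * i - 1 + 1) i with hN
  have hs1 : ∀ (h : ℕ) (r : Fin h), N * ((r : ℕ) + 1) + N * (h - (r : ℕ)) = N * (h + 1) := by
    intro h r
    rw [← mul_add]
    congr 1
    have := r.2
    omega
  refine ⟨fun r k => HH (2 * i - 1 + 1) hm him ((r : ℕ) + 1) (N * (h1 - (r : ℕ)))
    ((k : ℕ) + 1) (N * (h2 - (k : ℕ))), ?_, ?_, ?_, ?_, ?_⟩
  · intro r k
    refine Gen.MP_cast ?_ (HH_MP hm him _ _ _ _)
    rw [← hN, hs1 h1 r, hs1 h2 k]
    ring
  · intro r k σ p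
    exact HH_sy hm him _ _ _ _ σ p
  · intro r k
    have h3 := HH_wt (B := 2 * i - 1 + 1) hm him ((r : ℕ) + 1) (N * (h1 - (r : ℕ)))
      ((k : ℕ) + 1) (N * (h2 - (k : ℕ)))
    rw [← hN, hs1 h1 r, hs1 h2 k, ← mul_assoc, ← mul_assoc] at h3
    exact h3
  · intro r k p u v huv hp
    exact HH_zero hm hi hn him _ _ _ _ (Nat.succ_ne_zero _) p huv hp
  · set n0 := ∑ τ : Fin i ⊕ Fin i ≃ Fin (2 * i - 1 + 1), ws τ with hn0
    set n3 := ∑ τ : Fin i ⊕ Fin i ≃ Fin (2 * i - 1 + 1), xt τ with hn3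
    have hpos : 0 < n0 := by
      obtain ⟨τ, g0, g1, g2⟩ := exists_three hn hn2 (Sum.inl ⟨0, by omega⟩)
        (Sum.inr ⟨0, by omega⟩) (Sum.inr ⟨1, by omega⟩) (by simp) (by simp) (by simp)
      refine Finset.sum_pos' (fun _ _ => Nat.zero_le _) ⟨τ, Finset.mem_univ _, ?_⟩
      unfold ws
      refine Finset.sum_pos' (fun _ _ => Nat.zero_le _) ⟨⟨0, by omega⟩, Finset.mem_univ _, ?_⟩
      have hne : ¬ ∃ v, (pr τ ⟨0, by omega⟩ v : ℕ) = 1 := by
        intro hh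
        rcases mem_pr τ _ 1 _ g2 hh with d1 | d1
        · simp at d1
        · have := Sum.inr_injective d1
          simp at this
      unfold yl
      rw [if_pos ⟨⟨0, g0⟩, ⟨1, g1⟩, hne⟩]
      exact one_pos
    have hpos3 : 0 < n3 := by
      obtain ⟨τ, g0, g1, g2⟩ := exists_three hn hn2 (Sum.inl ⟨0, by omega⟩)
        (Sum.inl ⟨1, by omega⟩) (Sum.inl ⟨2, by omega⟩) (by simp) (by simp) (by simp)
      refine Finset.sum_pos' (fun _ _ => Nat.zero_le _) ⟨τ, Finset.mem_univ _, ?_⟩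
      unfold xt xl
      rw [if_pos ⟨⟨_, g0⟩, ⟨_, g1⟩, ⟨_, g2⟩⟩]
      omega
    set La := n0 * h1 + 2 with hLa
    choose f hf hf' using fun rk : Fin h1 × Fin h2 => HH_curve hm hi him hn
      (by omega : 2 ≤ La) ((rk.1 : ℕ) + 1) (N * (h1 - (rk.1 : ℕ))) ((rk.2 : ℕ) + 1)
      (N * (h2 - (rk.2 : ℕ)))
    refine li_of_LP _ (qq (2 * i - 1) m La) f _ ?_ (fun rk t => hf rk t) hf'
    rintro ⟨r, k⟩ ⟨r', k'⟩ heq
    have h3 := arith2 (La := La) (N := N) (n0 := n0) (h1 := h1) (h2 := h2) (by omega) hpos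
      hpos3 (sum_ds (i := i) (n := 2 * i - 1) (La := La) hn2 (by omega))
      (sum_dt (i := i) (n := 2 * i - 1) (La := La) (by omega)) r.2 r'.2 k.2 k'.2 heq
    exact Prod.ext (Fin.ext h3.1) (Fin.ext h3.2)

end Vale.Agent.P181.FR
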